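import Vale.Agent.P290.H445.Bridge

/-!
# P290 / H310: holomorphic maps and critical points of `P290.K.AllDefs` in the charts of P267

Complements `P290.H445.Bridge` (charts `toFL e` with values in `Fin 2 → ℂ`).

* `mdiff_iff_fl`, `mfderiv_fl`: `MDifferentiableAt` and `mfderiv` for the two models, any target;
* `holC_iff_md`, `holC_iff_fl`, `holC_iff_charts`: `HolC`, also in arbitrary charts;
* `critical_iff_mfderiv`, `critical_iff_fl`, `critical_iff_charts`: `Critical`;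
* `holOn_chart_comp`: `t ∘ π` is holomorphic in the sense of `FL.HolOn 0` on `π ⁻¹' t.source`;
* `critical_iff_del0`: in terms of `FL.del0 (t ∘ π)`.
-/

set_option linter.unusedSectionVars false
set_option linter.unusedVariables false

open scoped Manifold ContDiff Topology ComplexConjugate Matrix
open Set Filter

noncomputable section

namespace Vale.Agent.P290.H310

open Vale.Agent.P267 Vale.Agent.P290.H445

/-! ### the two models, source side -/

section source

variable {X : Type*} [TopologicalSpace X] [ChartedSpace (ℂ × ℂ) X]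
  {E : Type*} [NormedAddCommGroup E] [NormedSpace ℂ E] {H : Type*} [TopologicalSpace H]
  {I : ModelWithCorners ℂ E H} {N : Type*} [TopologicalSpace N] [ChartedSpace H N]

/-- `MDifferentiableAt` does not depend on the model -/
theorem mdiff_iff_fl {f : X → N} {x : X} :
    MDifferentiableAt 𝓘(ℂ, ℂ × ℂ) I f x ↔
      @MDifferentiableAt ℂ _ FL.C2 _ _ FL.C2 _ 𝓘(ℂ, FL.C2) X _ (flCharted X) E _ _ H _ I N _ _
        f x := by
  let _ := flCharted X
  rw [mdifferentiableAt_iff, mdifferentiableAt_iff]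
  refine and_congr_right fun _ => ?_
  simp only [writtenInExtChartAt, mfld_simps, differentiableWithinAt_univ]
  change DifferentiableAt ℂ ((extChartAt I (f x)) ∘ f ∘ (chartAt (ℂ × ℂ) x).symm)
      (chartAt (ℂ × ℂ) x x) ↔
    DifferentiableAt ℂ (((extChartAt I (f x)) ∘ f ∘ (chartAt (ℂ × ℂ) x).symm) ∘ φ.symm)
      (φ (chartAt (ℂ × ℂ) x x))
  constructor
  · intro h
    refine DifferentiableAt.comp _ ?_ φ.symm.differentiableAt
    rwa [ContinuousLinearEquiv.symm_apply_apply]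
  · intro h
    have h2 := DifferentiableAt.comp (chartAt (ℂ × ℂ) x x) h φ.differentiableAt
    have h3 : (((extChartAt I (f x)) ∘ f ∘ (chartAt (ℂ × ℂ) x).symm) ∘ φ.symm) ∘ φ =
        (extChartAt I (f x)) ∘ f ∘ (chartAt (ℂ × ℂ) x).symm := by
      funext z
      simp only [Function.comp_apply, ContinuousLinearEquiv.symm_apply_apply]
    rwa [h3] at h2

/-- auxiliary -/
theorem eq_comp_φ {g : ℂ × ℂ → E} {y : ℂ × ℂ} (D : (ℂ × ℂ) →L[ℂ] E) (D' : FL.C2 →L[ℂ] E)
    (h1 : HasFDerivAt g D y) (h2 : HasFDerivAt (g ∘ φ.symm) D' (φ y)) :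
    D = D'.comp (φ : (ℂ × ℂ) →L[ℂ] FL.C2) := by
  have h3 := h2.comp y (φ : (ℂ × ℂ) →L[ℂ] FL.C2).hasFDerivAt
  have h4 : (g ∘ φ.symm) ∘ φ = g := by
    funext z
    simp only [Function.comp_apply, ContinuousLinearEquiv.symm_apply_apply]
  change HasFDerivAt ((g ∘ φ.symm) ∘ φ) _ _ at h3
  rw [h4] at h3
  exact h1.unique h3

/-- the differentials for the two models differ by `φ` -/
theorem mfderiv_fl {f : X → N} {x : X} (h : MDifferentiableAt 𝓘(ℂ, ℂ × ℂ) I f x) :
    (mfderiv 𝓘(ℂ, ℂ × ℂ) I f x : (ℂ × ℂ) →L[ℂ] E) =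
      (@mfderiv ℂ _ FL.C2 _ _ FL.C2 _ 𝓘(ℂ, FL.C2) X _ (flCharted X) E _ _ H _ I N _ _
        f x : FL.C2 →L[ℂ] E).comp (φ : (ℂ × ℂ) →L[ℂ] FL.C2) := by
  let _ := flCharted X
  have h' := mdiff_iff_fl.1 h
  have h1 : HasFDerivAt ((extChartAt I (f x)) ∘ f ∘ (chartAt (ℂ × ℂ) x).symm)
      (mfderiv 𝓘(ℂ, ℂ × ℂ) I f x : (ℂ × ℂ) →L[ℂ] E) (chartAt (ℂ × ℂ) x x) := by
    have h4 := h.hasMFDerivAt.2
    simp only [writtenInExtChartAt, mfld_simps] at h4
    exact hasFDerivWithinAt_univ.1 h4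
  have h2 : HasFDerivAt (((extChartAt I (f x)) ∘ f ∘ (chartAt (ℂ × ℂ) x).symm) ∘ φ.symm)
      (mfderiv 𝓘(ℂ, FL.C2) I f x : FL.C2 →L[ℂ] E) (φ (chartAt (ℂ × ℂ) x x)) := by
    have h4 := h'.hasMFDerivAt.2
    simp only [writtenInExtChartAt, mfld_simps] at h4
    exact hasFDerivWithinAt_univ.1 h4
  exact eq_comp_φ (E := E) _ _ h1 h2

end source

/-! ### maps to Riemann surfaces -/

section maps

variable {X C : Type} [TopologicalSpace X] [ChartedSpace (ℂ × ℂ) X] [TopologicalSpace C]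
  [ChartedSpace ℂ C]

/-- `HolC` is `MDifferentiableAt` -/
theorem holC_iff_md {π : X → C} {x : X} :
    All.HolC π x ↔ MDifferentiableAt 𝓘(ℂ, ℂ × ℂ) 𝓘(ℂ) π x := by
  rw [mdifferentiableAt_iff, All.HolC]
  refine and_congr_right fun _ => ?_
  simp only [writtenInExtChartAt, mfld_simps, differentiableWithinAt_univ]
  rfl

/-- `HolC` in the charts with values in `Fin 2 → ℂ` -/
theorem holC_iff_fl {π : X → C} {x : X} :
    All.HolC π x ↔ @MDifferentiableAt ℂ _ FL.C2 _ _ FL.C2 _ 𝓘(ℂ, FL.C2) X _ (flCharted X) ℂ _ _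
      ℂ _ 𝓘(ℂ) C _ _ π x :=
  holC_iff_md.trans mdiff_iff_fl

/-- a linear form on `ℂ²` is zero iff it vanishes on the basis -/
theorem clm_eq_zero_iff (D : (ℂ × ℂ) →L[ℂ] ℂ) : D = 0 ↔ D (1, 0) = 0 ∧ D (0, 1) = 0 := by
  constructor
  · rintro rfl
    exact ⟨rfl, rfl⟩
  · rintro ⟨h1, h2⟩
    refine ContinuousLinearMap.ext fun v => ?_
    obtain ⟨a, b⟩ := v
    have e3 : ((a, b) : ℂ × ℂ) = a • ((1, 0) : ℂ × ℂ) + b • ((0, 1) : ℂ × ℂ) := by
      ext <;> simp
    rw [e3, map_add, map_smul, map_smul, h1, h2]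
    simp

/-- partial derivatives -/
theorem deriv_fst {g : ℂ × ℂ → ℂ} {y : ℂ × ℂ} (h : DifferentiableAt ℂ g y) :
    deriv (fun s => g (s, y.2)) y.1 = fderiv ℂ g y (1, 0) := by
  have h6 : HasDerivAt (fun s : ℂ => ((s, y.2) : ℂ × ℂ)) (1, 0) y.1 :=
    (hasDerivAt_id _).prodMk (hasDerivAt_const _ _)
  exact (HasFDerivAt.comp_hasDerivAt (f := fun s : ℂ => ((s, y.2) : ℂ × ℂ)) y.1
    h.hasFDerivAt h6).deriv

/-- partial derivatives -/
theorem deriv_snd {g : ℂ × ℂ → ℂ} {y : ℂ × ℂ} (h : DifferentiableAt ℂ g y) :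
    deriv (fun s => g (y.1, s)) y.2 = fderiv ℂ g y (0, 1) := by
  have h6 : HasDerivAt (fun s : ℂ => ((y.1, s) : ℂ × ℂ)) (0, 1) y.2 :=
    (hasDerivAt_const _ _).prodMk (hasDerivAt_id _)
  exact (HasFDerivAt.comp_hasDerivAt (f := fun s : ℂ => ((y.1, s) : ℂ × ℂ)) y.2
    h.hasFDerivAt h6).deriv

/-- `Critical` in the preferred charts -/
theorem critical_iff_fderiv {π : X → C} {x : X} (h : All.HolC π x) :
    All.Critical π x ↔ fderiv ℂ (fun z => chartAt ℂ (π x) (π ((chartAt (ℂ × ℂ) x).symm z)))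
      (chartAt (ℂ × ℂ) x x) = 0 := by
  rw [clm_eq_zero_iff, ← deriv_fst h.2, ← deriv_snd h.2]
  constructor
  · intro h1
    exact h1 _ _ _ rfl rfl rfl
  · rintro h1 e t y rfl rfl rfl
    exact h1

/-- `Critical` is the vanishing of the differential -/
theorem critical_iff_mfderiv {π : X → C} {x : X} (h : All.HolC π x) :
    All.Critical π x ↔ mfderiv 𝓘(ℂ, ℂ × ℂ) 𝓘(ℂ) π x = 0 := by
  rw [critical_iff_fderiv h, (holC_iff_md.1 h).mfderiv]
  simp only [writtenInExtChartAt, mfld_simps, fderivWithin_univ]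
  rfl

/-- auxiliary -/
theorem comp_φ_eq_zero {D : (ℂ × ℂ) →L[ℂ] ℂ} {D' : FL.C2 →L[ℂ] ℂ}
    (h : D = D'.comp (φ : (ℂ × ℂ) →L[ℂ] FL.C2)) : D = 0 ↔ D' = 0 := by
  constructor
  · intro h2
    refine ContinuousLinearMap.ext fun v => ?_
    have h4 := congrArg (fun D : (ℂ × ℂ) →L[ℂ] ℂ => D (φ.symm v)) (h.symm.trans h2)
    simp only [ContinuousLinearMap.comp_apply, ContinuousLinearEquiv.coe_coe,
      ContinuousLinearEquiv.apply_symm_apply] at h4
    exact h4
  · rintro rfl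
    rw [h, ContinuousLinearMap.zero_comp]

/-- `Critical` in the model `Fin 2 → ℂ` -/
theorem critical_iff_fl {π : X → C} {x : X} (h : All.HolC π x) :
    All.Critical π x ↔ @mfderiv ℂ _ FL.C2 _ _ FL.C2 _ 𝓘(ℂ, FL.C2) X _ (flCharted X) ℂ _ _
      ℂ _ 𝓘(ℂ) C _ _ π x = 0 :=
  (critical_iff_mfderiv h).trans (comp_φ_eq_zero (mfderiv_fl (holC_iff_md.1 h)))

end maps

/-! ### arbitrary charts -/

section charts

variable {X C : Type} [TopologicalSpace X] [ChartedSpace (ℂ × ℂ) X]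
  [IsManifold 𝓘(ℂ, ℂ × ℂ) ω X] [TopologicalSpace C] [ChartedSpace ℂ C] [IsManifold 𝓘(ℂ) ω C]

/-- `HolC` in arbitrary charts -/
theorem holC_iff_charts {π : X → C} {x : X} {e : OpenPartialHomeomorph X (ℂ × ℂ)}
    {t : OpenPartialHomeomorph C ℂ} (he : e ∈ atlas (ℂ × ℂ) X) (ht : t ∈ atlas ℂ C)
    (hx : x ∈ e.source) (hπ : π x ∈ t.source) :
    All.HolC π x ↔ ContinuousAt π x ∧ DifferentiableAt ℂ (fun z => t (π (e.symm z))) (e x) := by
  have n1 : IsManifold 𝓘(ℂ, ℂ × ℂ) 1 X := IsManifold.of_le (n := ω) le_top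
  have n2 : IsManifold 𝓘(ℂ) 1 C := IsManifold.of_le (n := ω) le_top
  rw [holC_iff_md, ← mdifferentiableWithinAt_univ, mdifferentiableWithinAt_iff_of_mem_maximalAtlas
    (IsManifold.subset_maximalAtlas (I := 𝓘(ℂ, ℂ × ℂ)) (n := 1) he)
    (IsManifold.subset_maximalAtlas (I := 𝓘(ℂ)) (n := 1) ht) hx hπ, continuousWithinAt_univ]
  refine and_congr_right fun _ => ?_
  simp only [mfld_simps, preimage_univ, differentiableWithinAt_univ]
  rfl

/-- the derivative of a change of coordinates is invertible (general normed space model) -/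
theorem fderiv_trans_comp {E : Type*} [NormedAddCommGroup E] [NormedSpace ℂ E] {Z : Type*}
    [TopologicalSpace Z] [ChartedSpace E Z] [IsManifold 𝓘(ℂ, E) ω Z]
    {e e' : OpenPartialHomeomorph Z E} (he : e ∈ atlas E Z) (he' : e' ∈ atlas E Z) {x : Z}
    (hx : x ∈ e.source) (hx' : x ∈ e'.source) :
    DifferentiableAt ℂ (fun z => e' (e.symm z)) (e x) ∧
      (fderiv ℂ (fun z => e (e'.symm z)) (e' x)).comp (fderiv ℂ (fun z => e' (e.symm z)) (e x)) =
        ContinuousLinearMap.id ℂ E := by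
  have key : ∀ {e e' : OpenPartialHomeomorph Z E}, e ∈ atlas E Z → e' ∈ atlas E Z →
      x ∈ e.source → x ∈ e'.source → DifferentiableAt ℂ (fun z => e' (e.symm z)) (e x) := by
    intro e e' he he' hx hx'
    have h := HasGroupoid.compatible (G := contDiffGroupoid ω 𝓘(ℂ, E)) he he'
    rw [contDiffGroupoid, mem_groupoid_of_pregroupoid] at h
    have h1 := h.1
    simp only [contDiffPregroupoid] at h1
    have h2 : ContDiffOn ℂ ω ((e' : Z → E) ∘ (e.symm : E → Z))
        (e.target ∩ e.symm ⁻¹' e'.source) := by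
      simpa using h1
    have h3 : e x ∈ e.target ∩ e.symm ⁻¹' e'.source :=
      ⟨e.map_source hx, by simpa [e.left_inv hx] using hx'⟩
    exact (h2.contDiffAt ((e.symm.isOpen_inter_preimage e'.open_source).mem_nhds h3)
      ).differentiableAt (by simp)
  refine ⟨key he he' hx hx', ?_⟩
  have h1 : (fun z => e (e'.symm (e' (e.symm z)))) =ᶠ[𝓝 (e x)] id := by
    have h3 : e x ∈ e.target ∩ e.symm ⁻¹' e'.source :=
      ⟨e.map_source hx, by simpa [e.left_inv hx] using hx'⟩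
    filter_upwards [(e.symm.isOpen_inter_preimage e'.open_source).mem_nhds h3] with z hz
    rw [e'.left_inv hz.2, e.right_inv hz.1, id]
  have h2 := (key he' he hx' hx).hasFDerivAt
  have h2' : HasFDerivAt (fun z => e (e'.symm z)) (fderiv ℂ (fun z => e (e'.symm z)) (e' x))
      ((fun z => e' (e.symm z)) (e x)) := by
    simpa only [e.left_inv hx] using h2
  have h3 := h2'.comp (e x) (key he he' hx hx').hasFDerivAt
  exact (h3.congr_of_eventuallyEq h1.symm).unique (hasFDerivAt_id _)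

/-- a holomorphic map in two pairs of charts -/
theorem fderiv_charts_eq {π : X → C} {x : X} {e e' : OpenPartialHomeomorph X (ℂ × ℂ)}
    {t t' : OpenPartialHomeomorph C ℂ} (he : e ∈ atlas (ℂ × ℂ) X) (ht : t ∈ atlas ℂ C)
    (he' : e' ∈ atlas (ℂ × ℂ) X) (ht' : t' ∈ atlas ℂ C)
    (hx : x ∈ e.source) (hπ : π x ∈ t.source) (hx' : x ∈ e'.source) (hπ' : π x ∈ t'.source)
    (h : All.HolC π x) :
    fderiv ℂ (fun z => t (π (e.symm z))) (e x) =
      ((fderiv ℂ (fun z => t (t'.symm z)) (t' (π x))).comp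
        (fderiv ℂ (fun z => t' (π (e'.symm z))) (e' x))).comp
          (fderiv ℂ (fun z => e' (e.symm z)) (e x)) := by
  have hc := h.1
  have h1 := ((holC_iff_charts he' ht' hx' hπ').1 h).2
  have h2 := (fderiv_trans_comp (E := ℂ × ℂ) he he' hx hx').1
  have h3 := (fderiv_trans_comp (E := ℂ) ht' ht hπ' hπ).1
  have h4 : (fun z => t (π (e.symm z))) =ᶠ[𝓝 (e x)]
      fun z => (fun w => t (t'.symm w)) ((fun w => t' (π (e'.symm w))) (e' (e.symm z))) := by
    have h5 : ∀ᶠ y in 𝓝 x, π y ∈ t'.source := hc.eventually (t'.open_source.mem_nhds hπ')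
    have h6 : ∀ᶠ y in 𝓝 x, y ∈ e'.source := e'.open_source.mem_nhds hx'
    have h7 : ContinuousAt e.symm (e x) := e.symm.continuousAt (e.map_source hx)
    have h8 : Tendsto e.symm (𝓝 (e x)) (𝓝 x) := by
      have := h7.tendsto
      rwa [e.left_inv hx] at this
    filter_upwards [h8.eventually h5, h8.eventually h6] with z hz hz'
    rw [e'.left_inv hz', t'.left_inv hz]
  have h1' : HasFDerivAt (fun w => t' (π (e'.symm w)))
      (fderiv ℂ (fun z => t' (π (e'.symm z))) (e' x)) ((fun z => e' (e.symm z)) (e x)) := by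
    simpa only [e.left_inv hx] using h1.hasFDerivAt
  have h5 := h1'.comp (e x) h2.hasFDerivAt
  have h3' : HasFDerivAt (fun w => t (t'.symm w)) (fderiv ℂ (fun z => t (t'.symm z)) (t' (π x)))
      (((fun w => t' (π (e'.symm w))) ∘ fun z => e' (e.symm z)) (e x)) := by
    simpa only [Function.comp_apply, e.left_inv hx, e'.left_inv hx'] using h3.hasFDerivAt
  have h6 := h3'.comp (e x) h5
  exact (h6.congr_of_eventuallyEq h4).fderiv

/-- the derivative vanishes in one pair of charts iff it does in every other one -/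
theorem fderiv_charts_zero_iff {π : X → C} {x : X} {e e' : OpenPartialHomeomorph X (ℂ × ℂ)}
    {t t' : OpenPartialHomeomorph C ℂ} (he : e ∈ atlas (ℂ × ℂ) X) (ht : t ∈ atlas ℂ C)
    (he' : e' ∈ atlas (ℂ × ℂ) X) (ht' : t' ∈ atlas ℂ C)
    (hx : x ∈ e.source) (hπ : π x ∈ t.source) (hx' : x ∈ e'.source) (hπ' : π x ∈ t'.source)
    (h : All.HolC π x) :
    fderiv ℂ (fun z => t (π (e.symm z))) (e x) = 0 ↔
      fderiv ℂ (fun z => t' (π (e'.symm z))) (e' x) = 0 := by
  constructor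
  · intro h0
    rw [fderiv_charts_eq he' ht' he ht hx' hπ' hx hπ h, h0, ContinuousLinearMap.comp_zero,
      ContinuousLinearMap.zero_comp]
  · intro h0
    rw [fderiv_charts_eq he ht he' ht' hx hπ hx' hπ' h, h0, ContinuousLinearMap.comp_zero,
      ContinuousLinearMap.zero_comp]

/-- `Critical` in arbitrary charts -/
theorem critical_iff_charts {π : X → C} {x : X} {e : OpenPartialHomeomorph X (ℂ × ℂ)}
    {t : OpenPartialHomeomorph C ℂ} (he : e ∈ atlas (ℂ × ℂ) X) (ht : t ∈ atlas ℂ C)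
    (hx : x ∈ e.source) (hπ : π x ∈ t.source) (h : All.HolC π x) :
    All.Critical π x ↔ fderiv ℂ (fun z => t (π (e.symm z))) (e x) = 0 :=
  (critical_iff_fderiv h).trans (fderiv_charts_zero_iff (chart_mem_atlas _ _) (chart_mem_atlas _ _)
    he ht (mem_chart_source _ _) (mem_chart_source _ _) hx hπ h)

/-- the derivative in the chart `toFL e` -/
theorem fderiv_toFL {V : Type*} [NormedAddCommGroup V] [NormedSpace ℂ V] {g : X → V}
    {e : OpenPartialHomeomorph X (ℂ × ℂ)} {x : X}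
    (h : DifferentiableAt ℂ (fun z => g (e.symm z)) (e x)) :
    HasFDerivAt (fun z => g ((toFL e).symm z))
      ((fderiv ℂ (fun z => g (e.symm z)) (e x)).comp (φ.symm : FL.C2 →L[ℂ] ℂ × ℂ))
      (toFL e x) := by
  have h1 : HasFDerivAt (fun z => g (e.symm z)) (fderiv ℂ (fun z => g (e.symm z)) (e x))
      (φ.symm (toFL e x)) := by
    rw [toFL_apply, ContinuousLinearEquiv.symm_apply_apply]
    exact h.hasFDerivAt
  exact h1.comp (toFL e x) (φ.symm : FL.C2 →L[ℂ] ℂ × ℂ).hasFDerivAt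

/-- `Critical` in the charts `toFL e` -/
theorem critical_iff_toFL {π : X → C} {x : X} {e : OpenPartialHomeomorph X (ℂ × ℂ)}
    {t : OpenPartialHomeomorph C ℂ} (he : e ∈ atlas (ℂ × ℂ) X) (ht : t ∈ atlas ℂ C)
    (hx : x ∈ e.source) (hπ : π x ∈ t.source) (h : All.HolC π x) :
    All.Critical π x ↔ fderiv ℂ (fun z => t (π ((toFL e).symm z))) (toFL e x) = 0 := by
  have h1 := ((holC_iff_charts he ht hx hπ).1 h).2
  rw [critical_iff_charts he ht hx hπ h, (fderiv_toFL (g := fun y => t (π y)) h1).fderiv]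
  refine comp_φ_eq_zero ?_
  refine ContinuousLinearMap.ext fun v => ?_
  simp only [ContinuousLinearMap.comp_apply, ContinuousLinearEquiv.coe_coe,
    ContinuousLinearEquiv.symm_apply_apply]

end charts

/-! ### K3 surfaces and `FL` -/

section K3

variable {X : All.K3} {R : All.RS} {π : X.X → R.C}

/-- a holomorphic map to a Riemann surface followed by a chart -/
theorem holOn_chart_comp (h : ∀ x, All.HolC π x) {t : OpenPartialHomeomorph R.C ℂ}
    (ht : t ∈ atlas ℂ R.C) : FL.HolOn 0 (fun x => t (π x)) (π ⁻¹' t.source) := by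
  have n1 := R.manifold
  rw [holOn_zero_iff]
  rintro e he z ⟨hz, hz'⟩
  refine DifferentiableAt.differentiableWithinAt ?_
  have h1 := ((holC_iff_charts he ht (e.map_target hz) hz').1 (h (e.symm z))).2
  rwa [e.right_inv hz] at h1

/-- conversely, on an open set -/
theorem holC_of_holOn {U : Set X.X} (hU : IsOpen U) {x : X.X} (hx : x ∈ U)
    (hc : ContinuousAt π x) {t : OpenPartialHomeomorph R.C ℂ}
    (ht : t ∈ atlas ℂ R.C) (hπ : π x ∈ t.source) (h : FL.HolOn 0 (fun x => t (π x)) U) :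
    All.HolC π x := by
  have n1 := R.manifold
  rw [holOn_zero_iff] at h
  refine (holC_iff_charts (chart_mem_atlas (ℂ × ℂ) x) ht (mem_chart_source _ x) hπ).2 ⟨hc, ?_⟩
  refine (h _ (chart_mem_atlas (ℂ × ℂ) x)).differentiableAt ?_
  refine ((chartAt (ℂ × ℂ) x).symm.isOpen_inter_preimage hU).mem_nhds ⟨mem_chart_target _ x, ?_⟩
  simpa using hx

/-- `Critical` in terms of the `(1,0)`-form `∂(t ∘ π)` of `FL` -/
theorem critical_iff_del0 (h : ∀ x, All.HolC π x) {t : OpenPartialHomeomorph R.C ℂ}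
    (ht : t ∈ atlas ℂ R.C) {x : X.X} (hπ : π x ∈ t.source) :
    All.Critical π x ↔ FL.del0 (fun y => t (π y)) x = 0 := by
  have n1 := R.manifold
  have h1 := ((holC_iff_charts (chart_mem_atlas (ℂ × ℂ) x) ht (mem_chart_source _ x) hπ).1 (h x)).2
  have h2 := (fderiv_toFL (g := fun y => t (π y)) h1)
  rw [critical_iff_toFL (chart_mem_atlas (ℂ × ℂ) x) ht (mem_chart_source _ x) hπ (h x)]
  have h3 : ∀ i, FL.del0 (fun y => t (π y)) x i =
      fderiv ℂ (fun z => t (π ((toFL (chartAt (ℂ × ℂ) x)).symm z))) (toFL (chartAt (ℂ × ℂ) x) x)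
        (Pi.single i 1) := fun i => FL.dz_of_hol h2.differentiableAt i
  constructor
  · intro h0
    funext i
    rw [h3, h0]
    rfl
  · intro h0
    refine ContinuousLinearMap.ext fun v => ?_
    rw [FL.c2_decomp v, map_add, map_smul, map_smul, ← h3, ← h3, h0]
    simp

end K3

end Vale.Agent.P290.H310
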